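import Crest.Agent.PotLib.Defs

/-!
Norm computations in the tree potential spaces: coordinate vectors, chain sums, siblings,
separability.
-/

set_option autoImplicit false

namespace Crest.Agent.PotLib

open Crest.AnalysisR Crest.AnalysisR.TreePotential Crest.Agent.AsyLib

/-- Value of a coordinate vector at a test. -/
theorem chain_cv_apply (m : PotentialModel) (s : List ℕ) (f : PotentialTest m) :
    ((cv m s : ↥(modelSpace m)) : lp (fun _ : PotentialTest m => ℝ) ⊤) f = f.1 s := rfl

/-- Evaluation at a test, as a linear functional on the model space. -/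
noncomputable def chain_ev (m : PotentialModel) (f : PotentialTest m) :
    ↥(modelSpace m) →ₗ[ℝ] ℝ where
  toFun x := (x : lp (fun _ : PotentialTest m => ℝ) ⊤) f
  map_add' x y := by simp
  map_smul' c x := by simp

theorem chain_ev_apply (m : PotentialModel) (f : PotentialTest m) (x : ↥(modelSpace m)) :
    chain_ev m f x = (x : lp (fun _ : PotentialTest m => ℝ) ⊤) f := rfl

theorem chain_ev_cv (m : PotentialModel) (f : PotentialTest m) (s : List ℕ) :
    chain_ev m f (cv m s) = f.1 s := rfl

/-- The value of an element at a test is bounded by the norm. -/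
theorem chain_abs_ev_le (m : PotentialModel) (f : PotentialTest m) (x : ↥(modelSpace m)) :
    |chain_ev m f x| ≤ ‖x‖ := by
  have h := lp.norm_apply_le_norm (p := ⊤) (by simp)
    (x : lp (fun _ : PotentialTest m => ℝ) ⊤) f
  rw [Real.norm_eq_abs] at h
  exact h

/-- The norm is bounded by any uniform bound of the values at tests. -/
theorem chain_norm_le_of (m : PotentialModel) (x : ↥(modelSpace m)) (C : ℝ) (hC : 0 ≤ C)
    (h : ∀ f : PotentialTest m, |chain_ev m f x| ≤ C) : ‖x‖ ≤ C := by
  have h' : ‖(x : lp (fun _ : PotentialTest m => ℝ) ⊤)‖ ≤ C :=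
    lp.norm_le_of_forall_le hC (fun f => by rw [Real.norm_eq_abs]; exact h f)
  exact h'

/-- Value of a chain sum at a test: the path potential. -/
theorem chain_apply (m : PotentialModel) (r : List ℕ) (f : PotentialTest m) :
    ((chain m r : ↥(modelSpace m)) : lp (fun _ : PotentialTest m => ℝ) ⊤) f =
      pathPotential f.1 r := by
  induction r with
  | nil => rfl
  | cons a v ih =>
    have h : chain_ev m f (chain m (a :: v)) = chain_ev m f (chain m v) + chain_ev m f (cv m (a :: v)) := by
      rw [← map_add]; rfl
    simp only [chain_ev_apply] at h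
    rw [h, ih]
    rfl

/-- The coefficient family of a single vertex. -/
noncomputable def chain_delta (s : List ℕ) : List ℕ → ℝ := fun u => if u = s then 1 else 0

theorem chain_pot_delta (s u : List ℕ) :
    pathPotential (chain_delta s) u = if s <:+ u then 1 else 0 := by
  induction u with
  | nil =>
    simp only [pathPotential, chain_delta, List.suffix_nil]
    by_cases h : s = []
    · simp [h]
    · simp [h, Ne.symm h]
  | cons a v ih =>
    simp only [pathPotential, ih, chain_delta, List.suffix_cons_iff]
    by_cases h1 : s <:+ v
    · have h2 : a :: v ≠ s := by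
        rintro rfl
        have := h1.length_le
        simp at this
      simp [h1, h2, Ne.symm h2]
    · by_cases h2 : a :: v = s
      · simp [h1, h2]
      · simp [h1, h2, Ne.symm h2]

/-- A family with bounded potentials, all finite square sums at most one, zero root coefficient
and finite support is a test of every model. -/
theorem chain_isTest_of_global (m : PotentialModel) (f : List ℕ → ℝ)
    (hpot : ∀ s, |pathPotential f s| ≤ 1)
    (hglob : ∀ A : Finset (List ℕ), ∑ u ∈ A, f u ^ 2 ≤ 1)
    (hroot : f [] = 0) (hfin : (Function.support f).Finite) : IsTest m f := by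
  refine ⟨hpot, ?_⟩
  have hsib : ∀ (r : List ℕ) (A : Finset ℕ), ∑ n ∈ A, f (n :: r) ^ 2 ≤ 1 := by
    intro r A
    have h := hglob (A.image (fun n => n :: r))
    rwa [Finset.sum_image (fun a _ b _ hab => (List.cons.inj hab).1)] at h
  cases m with
  | rootlessSibling => exact ⟨hroot, hsib⟩
  | rootedSibling => exact hsib
  | antichain => exact ⟨hfin, fun A _ => hglob A⟩
  | global => exact hglob

theorem chain_isTest_delta (m : PotentialModel) (s : List ℕ) (hs : s ≠ []) :
    IsTest m (chain_delta s) := by
  apply chain_isTest_of_global
  · intro u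
    rw [chain_pot_delta]
    split_ifs <;> simp
  · intro A
    have h : ∀ u ∈ A, chain_delta s u ^ 2 = if u = s then 1 else 0 := by
      intro u _
      unfold chain_delta
      split_ifs <;> simp
    rw [Finset.sum_congr rfl h, Finset.sum_ite_eq']
    split_ifs <;> norm_num
  · simp [chain_delta, Ne.symm hs]
  · apply Set.Finite.subset (Set.finite_singleton s)
    intro u hu
    simp only [Function.mem_support, chain_delta] at hu
    by_contra h
    exact hu (if_neg h)

/-- The single-vertex test of a non-root vertex. -/
noncomputable def chain_dtest (m : PotentialModel) (s : List ℕ) (hs : s ≠ []) :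
    PotentialTest m := ⟨chain_delta s, chain_isTest_delta m s hs⟩

theorem norm_chain_le (m : PotentialModel) (r : List ℕ) : ‖chain m r‖ ≤ 1 := by
  apply chain_norm_le_of m _ 1 zero_le_one
  intro f
  rw [chain_ev_apply, chain_apply]
  exact f.2.1 r

theorem one_le_norm_chain (m : PotentialModel) (r : List ℕ) (hr : r ≠ []) : 1 ≤ ‖chain m r‖ := by
  have h := chain_abs_ev_le m (chain_dtest m r hr) (chain m r)
  rw [chain_ev_apply, chain_apply] at h
  have h2 : pathPotential (chain_dtest m r hr).1 r = 1 := by
    show pathPotential (chain_delta r) r = 1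
    rw [chain_pot_delta]
    simp
  rw [h2] at h
  simpa using h

theorem one_le_norm_cv (m : PotentialModel) (s : List ℕ) (hs : s ≠ []) : 1 ≤ ‖cv m s‖ := by
  have h := chain_abs_ev_le m (chain_dtest m s hs) (cv m s)
  rw [chain_ev_cv] at h
  have h2 : (chain_dtest m s hs).1 s = 1 := by
    show chain_delta s s = 1
    simp [chain_delta]
  rw [h2] at h
  simpa using h

/-- Square sums of a test over the children of a vertex are at most one, in every model. -/
theorem chain_sibling_sq_le (m : PotentialModel) (f : PotentialTest m) (r : List ℕ)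
    (A : Finset ℕ) : ∑ n ∈ A, f.1 (n :: r) ^ 2 ≤ 1 := by
  obtain ⟨f, hpot, hex⟩ := f
  have himg : ∑ u ∈ A.image (fun n => n :: r), f u ^ 2 = ∑ n ∈ A, f (n :: r) ^ 2 :=
    Finset.sum_image (fun a _ b _ hab => (List.cons.inj hab).1)
  cases m with
  | rootlessSibling => exact hex.2 r A
  | rootedSibling => exact hex r A
  | antichain =>
    have h := hex.2 (A.image (fun n => n :: r)) (by
      intro u hu v hv huv hsuf
      simp only [Finset.mem_image] at hu hv
      obtain ⟨a, _, rfl⟩ := hu
      obtain ⟨b, _, rfl⟩ := hv
      exact huv (hsuf.eq_of_length (by simp)))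
    rwa [himg] at h
  | global =>
    have h := hex (A.image (fun n => n :: r))
    rwa [himg] at h

/-- The children of a vertex satisfy an upper `ℓ₂` estimate with constant `1`. -/
theorem upperTwo_siblings (m : PotentialModel) (r : List ℕ) :
    UpperTwo (fun n => cv m (n :: r)) 1 := by
  intro A c
  rw [one_mul]
  apply chain_norm_le_of m _ _ (Real.sqrt_nonneg _)
  intro f
  have h1 : chain_ev m f (∑ n ∈ A, c n • cv m (n :: r)) = ∑ n ∈ A, c n * f.1 (n :: r) := by
    rw [map_sum]
    apply Finset.sum_congr rfl
    intro n _
    rw [map_smul, chain_ev_cv, smul_eq_mul]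
  rw [h1]
  apply Real.abs_le_sqrt
  have h2 := Finset.sum_mul_sq_le_sq_mul_sq A c (fun n => f.1 (n :: r))
  have h3 := chain_sibling_sq_le m f r A
  have h4 : 0 ≤ ∑ n ∈ A, c n ^ 2 := Finset.sum_nonneg (fun n _ => sq_nonneg _)
  nlinarith

theorem separable_model (m : PotentialModel) :
    TopologicalSpace.SeparableSpace ↥(modelSpace m) := by
  have h1 : TopologicalSpace.IsSeparable (Set.range (coordVector m)) :=
    (Set.countable_range _).isSeparable
  have h2 : TopologicalSpace.IsSeparable
      ((modelSpace m : Submodule ℝ (lp (fun _ : PotentialTest m => ℝ) ⊤)) :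
        Set (lp (fun _ : PotentialTest m => ℝ) ⊤)) := by
    have h3 := (h1.span (R := ℝ)).closure
    simpa [modelSpace, Submodule.topologicalClosure_coe] using h3
  exact h2.separableSpace

end Crest.Agent.PotLib
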