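import Crest.Agent.AsyLib.Basic
import Crest.Prelude.Def_TreePotentials

/-!
Tree potential spaces (S0168, also the blocks of the S0166 witness): basic objects.
-/

set_option autoImplicit false

namespace Crest.Agent.PotLib

open Crest.AnalysisR Crest.AnalysisR.TreePotential

/-- The coordinate vector of the vertex `s` as an element of the model space. -/
noncomputable def cv (m : PotentialModel) (s : List ℕ) : ↥(modelSpace m) :=
  ⟨coordVector m s, Submodule.le_topologicalClosure _ (Submodule.subset_span ⟨s, rfl⟩)⟩

/-- The sum of the coordinate vectors over the root path of a vertex (the vertex and all its
ancestors including the root). Its value at a test `f` is `pathPotential f r`. -/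
noncomputable def chain (m : PotentialModel) : List ℕ → ↥(modelSpace m)
  | [] => cv m []
  | a :: v => chain m v + cv m (a :: v)

end Crest.Agent.PotLib
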