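import Crest.Agent.PotLib.Defs

/-!
Function-level facts about tests of the tree potential models: increments of potentials, clamping,
truncation to a parent-closed set, and the combination lemma.
-/

set_option autoImplicit false

namespace Crest.Agent.PotLib

open Crest.AnalysisR Crest.AnalysisR.TreePotential

/-- The increments of a potential. -/
def incr (H : List ℕ → ℝ) : List ℕ → ℝ
  | [] => H []
  | a :: v => H (a :: v) - H v

theorem pathPotential_incr (H : List ℕ → ℝ) : ∀ s, pathPotential (incr H) s = H s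
  | [] => rfl
  | a :: v => by simp [pathPotential, incr, pathPotential_incr H v]

theorem incr_pathPotential (f : List ℕ → ℝ) : ∀ s, incr (pathPotential f) s = f s
  | [] => rfl
  | a :: v => by simp [pathPotential, incr]

/-- Clamping to `[-1, 1]`. -/
noncomputable def clamp (v : ℝ) : ℝ := max (-1) (min 1 v)

theorem abs_clamp_le (v : ℝ) : |clamp v| ≤ 1 := by
  unfold clamp
  rw [abs_le]
  constructor
  · exact le_max_left _ _
  · exact max_le (by norm_num) (min_le_left _ _)

theorem clamp_of_abs_le {v : ℝ} (h : |v| ≤ 1) : clamp v = v := by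
  unfold clamp
  rw [abs_le] at h
  rw [min_eq_right h.2, max_eq_right h.1]

theorem clamp_zero : clamp 0 = 0 := clamp_of_abs_le (by simp)

theorem clamp_cases (v : ℝ) :
    (v < -1 ∧ clamp v = -1) ∨ (|v| ≤ 1 ∧ clamp v = v) ∨ (1 < v ∧ clamp v = 1) := by
  unfold clamp
  rcases lt_or_ge v (-1) with h | h
  · left
    refine ⟨h, ?_⟩
    rw [min_eq_right (by linarith), max_eq_left h.le]
  · rcases le_or_gt v 1 with h' | h'
    · right; left
      refine ⟨abs_le.2 ⟨h, h'⟩, ?_⟩
      rw [min_eq_right h', max_eq_right h]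
    · right; right
      refine ⟨h', ?_⟩
      rw [min_eq_left h'.le, max_eq_right (by norm_num)]

/-- The increment of the clamp lies between `0` and the increment of the argument. -/
theorem clamp_step (v d : ℝ) :
    (clamp (v + d) - clamp v) ^ 2 ≤ d ^ 2 ∧ (clamp (v + d) - clamp v - d) ^ 2 ≤ d ^ 2 := by
  rcases clamp_cases v with ⟨h1, e1⟩ | ⟨h1, e1⟩ | ⟨h1, e1⟩ <;>
  rcases clamp_cases (v + d) with ⟨h2, e2⟩ | ⟨h2, e2⟩ | ⟨h2, e2⟩ <;>
  rw [e1, e2] <;> (try rw [abs_le] at h1) <;> (try rw [abs_le] at h2) <;>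
  constructor <;> nlinarith

/-- The extra condition of every model is inherited under quadratic domination. -/
theorem extra_of_dom (m : PotentialModel) {f g h : List ℕ → ℝ} {α β : ℝ}
    (hab : α ^ 2 + β ^ 2 ≤ 1) (hf : ExtraCondition m f) (hg : ExtraCondition m g)
    (hdom : ∀ s, h s ^ 2 ≤ α ^ 2 * f s ^ 2 + β ^ 2 * g s ^ 2) : ExtraCondition m h := by
  have key : ∀ (ι : Type) (A : Finset ι) (e : ι → List ℕ),
      ∑ n ∈ A, f (e n) ^ 2 ≤ 1 → ∑ n ∈ A, g (e n) ^ 2 ≤ 1 → ∑ n ∈ A, h (e n) ^ 2 ≤ 1 := by
    intro ι A e h1 h2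
    calc ∑ n ∈ A, h (e n) ^ 2 ≤ ∑ n ∈ A, (α ^ 2 * f (e n) ^ 2 + β ^ 2 * g (e n) ^ 2) :=
          Finset.sum_le_sum (fun n _ => hdom (e n))
      _ = α ^ 2 * ∑ n ∈ A, f (e n) ^ 2 + β ^ 2 * ∑ n ∈ A, g (e n) ^ 2 := by
          rw [Finset.sum_add_distrib, Finset.mul_sum, Finset.mul_sum]
      _ ≤ α ^ 2 * 1 + β ^ 2 * 1 := by
          gcongr
      _ ≤ 1 := by linarith
  cases m with
  | rootlessSibling =>
    obtain ⟨hf0, hf⟩ := hf
    obtain ⟨hg0, hg⟩ := hg
    refine ⟨?_, fun r A => key ℕ A (fun n => n :: r) (hf r A) (hg r A)⟩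
    have := hdom []
    rw [hf0, hg0] at this
    have h0 : h [] ^ 2 ≤ 0 := by simpa using this
    exact pow_eq_zero_iff (two_ne_zero) |>.1 (le_antisymm h0 (sq_nonneg _))
  | rootedSibling =>
    exact fun r A => key ℕ A (fun n => n :: r) (hf r A) (hg r A)
  | antichain =>
    obtain ⟨hfs, hf⟩ := hf
    obtain ⟨hgs, hg⟩ := hg
    refine ⟨(hfs.union hgs).subset ?_, fun A hA => key (List ℕ) A id (hf A hA) (hg A hA)⟩
    intro s hs
    by_contra hcon
    simp only [Set.mem_union, Function.mem_support, not_or, not_not] at hcon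
    have := hdom s
    rw [hcon.1, hcon.2] at this
    have h0 : h s ^ 2 ≤ 0 := by simpa using this
    exact hs (pow_eq_zero_iff (two_ne_zero) |>.1 (le_antisymm h0 (sq_nonneg _)))
  | global =>
    exact fun A => key (List ℕ) A id (hf A) (hg A)

theorem isTest_zero (m : PotentialModel) : IsTest m (fun _ => 0) := by
  have hp : ∀ s, pathPotential (fun _ : List ℕ => (0 : ℝ)) s = 0 := by
    intro s
    induction s with
    | nil => rfl
    | cons a v ih => simp [pathPotential, ih]
  refine ⟨fun s => by rw [hp s]; simp, ?_⟩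
  cases m with
  | rootlessSibling => exact ⟨rfl, fun r A => by simp⟩
  | rootedSibling => exact fun r A => by simp
  | antichain =>
    refine ⟨?_, fun A _ => by simp⟩
    have : Function.support (fun _ : List ℕ => (0 : ℝ)) = ∅ := by
      ext s; simp
    rw [this]
    exact Set.finite_empty
  | global => exact fun A => by simp

theorem pathPotential_neg (f : List ℕ → ℝ) : ∀ s, pathPotential (fun u => -f u) s = -pathPotential f s
  | [] => rfl
  | a :: v => by simp [pathPotential, pathPotential_neg f v]; ring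

theorem isTest_neg (m : PotentialModel) {f : List ℕ → ℝ} (hf : IsTest m f) :
    IsTest m (fun u => -f u) := by
  refine ⟨fun s => by rw [pathPotential_neg, abs_neg]; exact hf.1 s, ?_⟩
  refine extra_of_dom m (α := 1) (β := 0) (by norm_num) hf.2 hf.2 (fun s => ?_)
  simp

/-- Potential of the restriction of `g` to the complement of a parent-closed set `D`:
it vanishes on `D` and differs from a potential of `g` by a constant of absolute value at most `1`. -/
theorem potential_off (D : Set (List ℕ)) (hD : ∀ a v, a :: v ∈ D → v ∈ D) (g : List ℕ → ℝ)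
    (hg : ∀ s, |pathPotential g s| ≤ 1) :
    ∀ s, (s ∈ D → pathPotential (Dᶜ.indicator g) s = 0) ∧
      ∃ c : ℝ, |c| ≤ 1 ∧ pathPotential (Dᶜ.indicator g) s = pathPotential g s - c := by
  intro s
  induction s with
  | nil =>
    by_cases h : ([] : List ℕ) ∈ D
    · have e : pathPotential (Dᶜ.indicator g) [] = 0 := by
        simp [pathPotential, Set.indicator, h]
      refine ⟨fun _ => e, pathPotential g [], hg [], ?_⟩
      rw [e]; ring
    · have e : pathPotential (Dᶜ.indicator g) [] = pathPotential g [] := by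
        simp [pathPotential, Set.indicator, h]
      exact ⟨fun h' => absurd h' h, 0, by simp, by rw [e]; ring⟩
  | cons a v ih =>
    obtain ⟨ih1, c, hc, ih2⟩ := ih
    by_cases h : a :: v ∈ D
    · have e : pathPotential (Dᶜ.indicator g) (a :: v) = 0 := by
        have := ih1 (hD a v h)
        simp [pathPotential, Set.indicator, h, this]
      refine ⟨fun _ => e, pathPotential g (a :: v), hg _, ?_⟩
      rw [e]; ring
    · refine ⟨fun h' => absurd h' h, c, hc, ?_⟩
      have e : pathPotential (Dᶜ.indicator g) (a :: v) =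
          pathPotential (Dᶜ.indicator g) v + g (a :: v) := by
        simp [pathPotential, Set.indicator, h]
      rw [e, ih2]
      simp [pathPotential]; ring

theorem abs_potential_off_le (D : Set (List ℕ)) (hD : ∀ a v, a :: v ∈ D → v ∈ D)
    (g : List ℕ → ℝ) (hg : ∀ s, |pathPotential g s| ≤ 1) (s : List ℕ) :
    |pathPotential (Dᶜ.indicator g) s| ≤ 2 := by
  obtain ⟨-, c, hc, e⟩ := potential_off D hD g hg s
  rw [e]
  have := hg s
  rw [abs_le] at *
  constructor <;> linarith [this.1, this.2, hc.1, hc.2]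

/-- Potential of the restriction of `f` to a parent-closed set `D`. -/
theorem potential_on (D : Set (List ℕ)) (hD : ∀ a v, a :: v ∈ D → v ∈ D) (f : List ℕ → ℝ) :
    ∀ s, (s ∈ D → pathPotential (D.indicator f) s = pathPotential f s) ∧
      (pathPotential (D.indicator f) s = 0 ∨
        ∃ u, pathPotential (D.indicator f) s = pathPotential f u) := by
  intro s
  induction s with
  | nil =>
    by_cases h : ([] : List ℕ) ∈ D
    · have e : pathPotential (D.indicator f) [] = pathPotential f [] := by
        simp [pathPotential, Set.indicator, h]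
      exact ⟨fun _ => e, Or.inr ⟨[], e⟩⟩
    · have e : pathPotential (D.indicator f) [] = 0 := by
        simp [pathPotential, Set.indicator, h]
      exact ⟨fun h' => absurd h' h, Or.inl e⟩
  | cons a v ih =>
    obtain ⟨ih1, ih2⟩ := ih
    by_cases h : a :: v ∈ D
    · have e : pathPotential (D.indicator f) (a :: v) = pathPotential f (a :: v) := by
        have := ih1 (hD a v h)
        simp [pathPotential, Set.indicator, h, this]
      exact ⟨fun _ => e, Or.inr ⟨_, e⟩⟩
    · have e : pathPotential (D.indicator f) (a :: v) = pathPotential (D.indicator f) v := by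
        simp [pathPotential, Set.indicator, h]
      refine ⟨fun h' => absurd h' h, ?_⟩
      rw [e]
      exact ih2

theorem abs_potential_on_le (D : Set (List ℕ)) (hD : ∀ a v, a :: v ∈ D → v ∈ D)
    (f : List ℕ → ℝ) (hf : ∀ s, |pathPotential f s| ≤ 1) (s : List ℕ) :
    |pathPotential (D.indicator f) s| ≤ 1 := by
  rcases (potential_on D hD f s).2 with e | ⟨u, e⟩
  · rw [e]; simp
  · rw [e]; exact hf u

/-- The combination lemma. -/
theorem exists_combination (m : PotentialModel) (D : Set (List ℕ))
    (hD : ∀ a v, a :: v ∈ D → v ∈ D) (f g : List ℕ → ℝ) (hf : IsTest m f) (hg : IsTest m g)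
    (α β : ℝ) (hα : 0 ≤ α) (hβ : 0 ≤ β) (hab : α ^ 2 + β ^ 2 ≤ 1) :
    ∃ hp hm : List ℕ → ℝ, IsTest m hp ∧ IsTest m hm ∧
      (∀ s ∈ D, hp s = α * f s ∧ hm s = α * f s) ∧ (∀ s, s ∉ D → hp s - hm s = β * g s) := by
  have hα1 : α ≤ 1 := by nlinarith
  have hβ1 : β ≤ 1 := by nlinarith
  set f' : List ℕ → ℝ := D.indicator f with hf'
  set g' : List ℕ → ℝ := Dᶜ.indicator g with hg'
  have hPf : ∀ s, |pathPotential f' s| ≤ 1 := abs_potential_on_le D hD f hf.1
  have hPg : ∀ s, |pathPotential g' s| ≤ 2 := abs_potential_off_le D hD g hg.1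
  have hPg0 : ∀ s ∈ D, pathPotential g' s = 0 := fun s hs => (potential_off D hD g hg.1 s).1 hs
  -- pointwise facts on f', g'
  have hf'D : ∀ s ∈ D, f' s = f s := fun s hs => Set.indicator_of_mem hs f
  have hf'N : ∀ s, s ∉ D → f' s = 0 := fun s hs => Set.indicator_of_notMem hs f
  have hg'D : ∀ s ∈ D, g' s = 0 := fun s hs => Set.indicator_of_notMem (by simpa using hs) g
  have hg'N : ∀ s, s ∉ D → g' s = g s := fun s hs => Set.indicator_of_mem (by simpa using hs) g
  -- the potentials
  set v : List ℕ → ℝ := fun s => α * pathPotential f' s + β * pathPotential g' s with hv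
  set Hp : List ℕ → ℝ := fun s => clamp (v s) with hHp
  set Hm : List ℕ → ℝ := fun s => clamp (v s) - β * pathPotential g' s with hHm
  -- increments
  have hαP : ∀ s, |α * pathPotential f' s| ≤ 1 := by
    intro s
    rw [abs_mul, abs_of_nonneg hα]
    calc α * |pathPotential f' s| ≤ 1 * 1 := by
          apply mul_le_mul hα1 (hPf s) (abs_nonneg _) (by norm_num)
      _ = 1 := by norm_num
  -- shape of the increments of Hp
  have hstep : ∀ s, ∃ w : ℝ, incr Hp s = clamp (w + (α * f' s + β * g' s)) - clamp w := by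
    intro s
    cases s with
    | nil =>
      refine ⟨0, ?_⟩
      simp only [incr, hHp, hv, pathPotential, clamp_zero, zero_add, sub_zero]
    | cons a t =>
      refine ⟨v t, ?_⟩
      simp only [incr, hHp, hv, pathPotential]
      congr 2
      ring
  have hincrm : ∀ s, incr Hm s = incr Hp s - β * g' s := by
    intro s
    cases s with
    | nil => simp only [incr, hHm, hHp, pathPotential]
    | cons a t =>
      simp only [incr, hHm, hHp, pathPotential]
      ring
  have hdomp : ∀ s, incr Hp s ^ 2 ≤ α ^ 2 * f s ^ 2 + β ^ 2 * g s ^ 2 := by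
    intro s
    obtain ⟨w, hw⟩ := hstep s
    rw [hw]
    have h1 := (clamp_step w (α * f' s + β * g' s)).1
    by_cases hs : s ∈ D
    · rw [hf'D s hs, hg'D s hs] at h1 ⊢
      have : 0 ≤ β ^ 2 * g s ^ 2 := by positivity
      nlinarith
    · rw [hf'N s hs, hg'N s hs] at h1 ⊢
      have : 0 ≤ α ^ 2 * f s ^ 2 := by positivity
      nlinarith
  have hdomm : ∀ s, incr Hm s ^ 2 ≤ α ^ 2 * f s ^ 2 + β ^ 2 * g s ^ 2 := by
    intro s
    rw [hincrm s]
    obtain ⟨w, hw⟩ := hstep s
    rw [hw]
    by_cases hs : s ∈ D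
    · have h1 := (clamp_step w (α * f' s + β * g' s)).1
      rw [hf'D s hs, hg'D s hs] at h1 ⊢
      have : 0 ≤ β ^ 2 * g s ^ 2 := by positivity
      nlinarith
    · have h1 := (clamp_step w (α * f' s + β * g' s)).2
      rw [hf'N s hs, hg'N s hs] at h1 ⊢
      have : 0 ≤ α ^ 2 * f s ^ 2 := by positivity
      have e : clamp (w + (α * 0 + β * g s)) - clamp w - β * g s =
          clamp (w + (α * 0 + β * g s)) - clamp w - (α * 0 + β * g s) := by ring
      rw [e]
      nlinarith
  have hHm1 : ∀ s, |Hm s| ≤ 1 := by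
    intro s
    have hp := hαP s
    have hq := hPg s
    have hq' : |β * pathPotential g' s| ≤ 2 := by
      rw [abs_mul, abs_of_nonneg hβ]
      calc β * |pathPotential g' s| ≤ 1 * 2 := by
            apply mul_le_mul hβ1 hq (abs_nonneg _) (by norm_num)
        _ = 2 := by norm_num
    simp only [hHm, hv]
    rw [abs_le] at hp hq' ⊢
    rcases clamp_cases (α * pathPotential f' s + β * pathPotential g' s) with ⟨h1, e1⟩ | ⟨h1, e1⟩ | ⟨h1, e1⟩
    · rw [e1]; constructor <;> linarith [hp.1, hp.2, hq'.1, hq'.2]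
    · rw [e1]; constructor <;> linarith [hp.1, hp.2, hq'.1, hq'.2]
    · rw [e1]; constructor <;> linarith [hp.1, hp.2, hq'.1, hq'.2]
  refine ⟨incr Hp, incr Hm, ⟨?_, extra_of_dom m hab hf.2 hg.2 hdomp⟩,
    ⟨?_, extra_of_dom m hab hf.2 hg.2 hdomm⟩, ?_, ?_⟩
  · intro s
    rw [pathPotential_incr]
    exact abs_clamp_le _
  · intro s
    rw [pathPotential_incr]
    exact hHm1 s
  · intro s hs
    have e1 : incr Hp s = α * f s := by
      cases s with
      | nil =>
        simp only [incr, hHp, hv]
        rw [hPg0 [] hs, mul_zero, add_zero, clamp_of_abs_le (hαP [])]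
        simp only [pathPotential]
        rw [hf'D [] hs]
      | cons a t =>
        have ht : t ∈ D := hD a t hs
        simp only [incr, hHp, hv]
        rw [hPg0 _ hs, hPg0 _ ht, mul_zero, add_zero, add_zero, clamp_of_abs_le (hαP _),
          clamp_of_abs_le (hαP _)]
        simp only [pathPotential]
        rw [hf'D _ hs]
        ring
    refine ⟨e1, ?_⟩
    rw [hincrm s, e1, hg'D s hs]
    ring
  · intro s hs
    rw [hincrm s, hg'N s hs]
    ring

end Crest.Agent.PotLib
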