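import Crest.Agent.PotLib.MidAux

/-!
Space-level tools for the tree potential spaces: finitely supported arrays as vectors, pairing with
tests, density, evaluation functionals, single-vertex tests.
-/

set_option autoImplicit false

namespace Crest.Agent.PotLib

open Crest.AnalysisR Crest.AnalysisR.TreePotential

/-- Pairing of a coefficient family with a finitely supported array. -/
noncomputable def pair (f : List ℕ → ℝ) (a : List ℕ →₀ ℝ) : ℝ := a.sum (fun s c => c * f s)

/-- The vector of a finitely supported array, in the ambient space. -/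
noncomputable def vecA (m : PotentialModel) (a : List ℕ →₀ ℝ) :
    lp (fun _ : PotentialTest m => ℝ) ⊤ := a.sum (fun s c => c • coordVector m s)

theorem vecA_mem (m : PotentialModel) (a : List ℕ →₀ ℝ) : vecA m a ∈ modelSpace m := by
  apply Submodule.le_topologicalClosure
  unfold vecA Finsupp.sum
  exact Submodule.sum_mem _ (fun s _ => Submodule.smul_mem _ _ (Submodule.subset_span ⟨s, rfl⟩))

/-- The vector of a finitely supported array, in the model space. -/
noncomputable def vec (m : PotentialModel) (a : List ℕ →₀ ℝ) : ↥(modelSpace m) :=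
  ⟨vecA m a, vecA_mem m a⟩

theorem coordVector_apply (m : PotentialModel) (s : List ℕ) (f : PotentialTest m) :
    (coordVector m s) f = f.1 s := rfl

theorem vecA_apply (m : PotentialModel) (a : List ℕ →₀ ℝ) (f : PotentialTest m) :
    (vecA m a) f = pair f.1 a := by
  unfold vecA pair Finsupp.sum
  rw [lp.coeFn_sum, Finset.sum_apply]
  refine Finset.sum_congr rfl (fun s _ => ?_)
  rw [lp.coeFn_smul, Pi.smul_apply, coordVector_apply, smul_eq_mul]

theorem vec_apply (m : PotentialModel) (a : List ℕ →₀ ℝ) (f : PotentialTest m) :
    ((vec m a : ↥(modelSpace m)) : lp (fun _ : PotentialTest m => ℝ) ⊤) f = pair f.1 a :=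
  vecA_apply m a f

theorem vecA_add (m : PotentialModel) (a b : List ℕ →₀ ℝ) :
    vecA m (a + b) = vecA m a + vecA m b := by
  unfold vecA
  exact Finsupp.sum_add_index' (fun s => zero_smul ℝ _) (fun s c d => add_smul c d _)

theorem vec_add (m : PotentialModel) (a b : List ℕ →₀ ℝ) :
    vec m (a + b) = vec m a + vec m b :=
  Subtype.ext (vecA_add m a b)

/-- Values of an element of the model space are bounded by its norm. -/
theorem abs_apply_le_norm (m : PotentialModel) (x : ↥(modelSpace m)) (f : PotentialTest m) :
    |(x : lp (fun _ : PotentialTest m => ℝ) ⊤) f| ≤ ‖x‖ := by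
  have := lp.norm_apply_le_norm (ENNReal.top_ne_zero)
    (x : lp (fun _ : PotentialTest m => ℝ) ⊤) f
  rwa [Real.norm_eq_abs] at this

theorem norm_le_of_forall_abs_le (m : PotentialModel) (x : ↥(modelSpace m)) {C : ℝ} (hC : 0 ≤ C)
    (h : ∀ f : PotentialTest m, |(x : lp (fun _ : PotentialTest m => ℝ) ⊤) f| ≤ C) : ‖x‖ ≤ C := by
  have := lp.norm_le_of_forall_le (f := (x : lp (fun _ : PotentialTest m => ℝ) ⊤)) hC
    (fun f => by rw [Real.norm_eq_abs]; exact h f)
  exact this

theorem pair_neg (f : List ℕ → ℝ) (a : List ℕ →₀ ℝ) : pair (fun u => -f u) a = -pair f a := by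
  unfold pair Finsupp.sum
  rw [← Finset.sum_neg_distrib]
  exact Finset.sum_congr rfl (fun s _ => by ring)

/-- A test almost norming the vector of an array. -/
theorem exists_test_gt (m : PotentialModel) (a : List ℕ →₀ ℝ) {ε : ℝ} (hε : 0 < ε) :
    ∃ f : List ℕ → ℝ, IsTest m f ∧ ‖vec m a‖ - ε < pair f a := by
  by_contra hcon
  push Not at hcon
  have h0 : 0 ≤ ‖vec m a‖ - ε := by
    have := hcon (fun _ => 0) (isTest_zero m)
    have e : pair (fun _ => (0 : ℝ)) a = 0 := by
      unfold pair Finsupp.sum
      simp
    linarith
  have hle : ‖vec m a‖ ≤ ‖vec m a‖ - ε := by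
    refine norm_le_of_forall_abs_le m _ h0 (fun f => ?_)
    rw [vec_apply, abs_le]
    constructor
    · have := hcon (fun u => -f.1 u) (isTest_neg m f.2)
      rw [pair_neg] at this
      linarith
    · exact hcon f.1 f.2
  linarith

/-- Density of the vectors of finitely supported arrays. -/
theorem exists_vec_near (m : PotentialModel) (x : ↥(modelSpace m)) {ε : ℝ} (hε : 0 < ε) :
    ∃ a : List ℕ →₀ ℝ, ‖x - vec m a‖ < ε := by
  have hx : (x : lp (fun _ : PotentialTest m => ℝ) ⊤) ∈
      closure ((Submodule.span ℝ (Set.range (coordVector m)) :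
        Submodule ℝ (lp (fun _ : PotentialTest m => ℝ) ⊤)) :
          Set (lp (fun _ : PotentialTest m => ℝ) ⊤)) := by
    have := x.2
    unfold modelSpace at this
    rwa [← Submodule.topologicalClosure_coe]
  obtain ⟨b, hb, hd⟩ := Metric.mem_closure_iff.1 hx ε hε
  obtain ⟨c, hc⟩ := (Finsupp.mem_span_range_iff_exists_finsupp).1 hb
  refine ⟨c, ?_⟩
  have e : ((x - vec m c : ↥(modelSpace m)) : lp (fun _ : PotentialTest m => ℝ) ⊤) =
      (x : lp (fun _ : PotentialTest m => ℝ) ⊤) - b := by
    rw [Submodule.coe_sub]
    congr 1
  have e2 : ‖x - vec m c‖ = ‖((x - vec m c : ↥(modelSpace m)) :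
      lp (fun _ : PotentialTest m => ℝ) ⊤)‖ := rfl
  rw [e2, e, ← dist_eq_norm]
  exact hd

/-- Packaging a test as an element of the test type. -/
def mkTest (m : PotentialModel) (f : List ℕ → ℝ) (h : IsTest m f) : PotentialTest m := ⟨f, h⟩

theorem mkTest_val (m : PotentialModel) (f : List ℕ → ℝ) (h : IsTest m f) :
    (mkTest m f h).1 = f := rfl

/-- Evaluation at a test, as a continuous linear functional on the model space. -/
noncomputable def evT (m : PotentialModel) (f : PotentialTest m) : ↥(modelSpace m) →L[ℝ] ℝ :=
  LinearMap.mkContinuous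
    { toFun := fun x => (x : lp (fun _ : PotentialTest m => ℝ) ⊤) f
      map_add' := fun x y => by
        rw [Submodule.coe_add, lp.coeFn_add, Pi.add_apply]
      map_smul' := fun c x => by
        rw [Submodule.coe_smul, lp.coeFn_smul, Pi.smul_apply, RingHom.id_apply] }
    1 (fun x => by
      rw [one_mul, Real.norm_eq_abs]
      exact abs_apply_le_norm m x f)

theorem evT_apply (m : PotentialModel) (f : PotentialTest m) (x : ↥(modelSpace m)) :
    evT m f x = (x : lp (fun _ : PotentialTest m => ℝ) ⊤) f := rfl

theorem apply_add (m : PotentialModel) (x y : ↥(modelSpace m)) (f : PotentialTest m) :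
    ((x + y : ↥(modelSpace m)) : lp (fun _ : PotentialTest m => ℝ) ⊤) f =
      (x : lp (fun _ : PotentialTest m => ℝ) ⊤) f +
        (y : lp (fun _ : PotentialTest m => ℝ) ⊤) f :=
  map_add (evT m f) x y

theorem apply_sub (m : PotentialModel) (x y : ↥(modelSpace m)) (f : PotentialTest m) :
    ((x - y : ↥(modelSpace m)) : lp (fun _ : PotentialTest m => ℝ) ⊤) f =
      (x : lp (fun _ : PotentialTest m => ℝ) ⊤) f -
        (y : lp (fun _ : PotentialTest m => ℝ) ⊤) f :=
  map_sub (evT m f) x y

/-- The single-vertex coefficient family. -/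
noncomputable def delta (s : List ℕ) : List ℕ → ℝ := fun u => if u = s then 1 else 0

theorem pathPotential_delta (s : List ℕ) :
    ∀ u, pathPotential (delta s) u = if s <:+ u then 1 else 0 := by
  intro u
  induction u with
  | nil =>
    simp only [pathPotential, delta, List.suffix_nil]
    by_cases h : s = []
    · simp [h]
    · have : ¬ ([] : List ℕ) = s := fun e => h e.symm
      simp [h, this]
  | cons a v ih =>
    simp only [pathPotential, ih, delta, List.suffix_cons_iff]
    by_cases h1 : s <:+ v
    · have h2 : ¬ (a :: v = s) := by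
        intro e
        have := h1.length_le
        rw [← e] at this
        simp at this
      simp [h1, h2]
    · by_cases h2 : a :: v = s
      · subst h2
        simp [h1]
      · have : ¬ s = a :: v := fun e => h2 e.symm
        simp [h1, h2, this]

theorem sum_delta_sq_le_one (s : List ℕ) {ι : Type} (e : ι → List ℕ) (he : Function.Injective e)
    (A : Finset ι) : ∑ n ∈ A, delta s (e n) ^ 2 ≤ 1 := by
  classical
  by_cases h : ∃ n₀ ∈ A, e n₀ = s
  · obtain ⟨n₀, hn₀, e0⟩ := h
    have : ∀ n ∈ A, delta s (e n) ^ 2 = if n = n₀ then 1 else 0 := by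
      intro n _
      unfold delta
      by_cases hn : n = n₀
      · simp [hn, e0]
      · have : e n ≠ s := fun h' => hn (he (h'.trans e0.symm))
        simp [hn, this]
    rw [Finset.sum_congr rfl this, Finset.sum_ite_eq' A n₀]
    simp [hn₀]
  · push Not at h
    have : ∀ n ∈ A, delta s (e n) ^ 2 = 0 := by
      intro n hn
      unfold delta
      simp [h n hn]
    rw [Finset.sum_congr rfl this]
    simp

theorem isTest_delta (m : PotentialModel) (s : List ℕ)
    (hs : m = PotentialModel.rootlessSibling → s ≠ []) : IsTest m (delta s) := by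
  refine ⟨fun u => ?_, ?_⟩
  · rw [pathPotential_delta]
    split_ifs <;> simp
  · cases m with
    | rootlessSibling =>
      refine ⟨?_, fun r A => sum_delta_sq_le_one s (fun n => n :: r)
        (fun a b h => by simpa using h) A⟩
      have := hs rfl
      unfold delta
      simp [this.symm]
    | rootedSibling =>
      exact fun r A => sum_delta_sq_le_one s (fun n => n :: r) (fun a b h => by simpa using h) A
    | antichain =>
      refine ⟨(Set.finite_singleton s).subset ?_, fun A _ =>
        sum_delta_sq_le_one s id Function.injective_id A⟩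
      intro u hu
      simp only [Function.mem_support, delta] at hu
      by_contra hcon
      exact hu (by simp [show u ≠ s from hcon])
    | global =>
      exact fun A => sum_delta_sq_le_one s id Function.injective_id A

theorem pair_delta (s : List ℕ) (a : List ℕ →₀ ℝ) : pair (delta s) a = a s := by
  classical
  unfold pair delta Finsupp.sum
  simp only [mul_ite, mul_one, mul_zero]
  rw [Finset.sum_ite_eq' a.support s]
  by_cases h : s ∈ a.support
  · simp [h]
  · simp only [h, if_false]
    exact (Finsupp.notMem_support_iff.1 h).symm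

theorem delta_test_or_zero (m : PotentialModel) (s : List ℕ) :
    IsTest m (delta s) ∨ ∀ f : PotentialTest m, f.1 s = 0 := by
  by_cases h : m = PotentialModel.rootlessSibling ∧ s = []
  · right
    obtain ⟨rfl, rfl⟩ := h
    intro f
    exact f.2.2.1
  · left
    refine isTest_delta m s (fun hm hs => h ⟨hm, hs⟩)

theorem abs_test_le_two (m : PotentialModel) (f : PotentialTest m) (s : List ℕ) :
    |f.1 s| ≤ 2 := by
  have hg := f.2.1
  cases s with
  | nil =>
    have h0 := hg []
    simp only [pathPotential] at h0
    linarith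
  | cons a v =>
    have h1 := hg (a :: v)
    have h2 := hg v
    simp only [pathPotential] at h1
    rw [abs_le] at h1 h2 ⊢
    constructor <;> linarith [h1.1, h1.2, h2.1, h2.2]

end Crest.Agent.PotLib
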