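import Crest.Agent.PotLib.MidSpace
import Crest.Agent.AsyLib.Cof

/-!
The midpoint property `MP` of the four tree potential spaces (clamped potential argument).
-/

set_option autoImplicit false

namespace Crest.Agent.PotLib

open Crest.AnalysisR Crest.AnalysisR.TreePotential Crest.Agent.AsyLib

theorem sqrt_four_eq (A B : ℝ) :
    Real.sqrt (4 * A ^ 2 + B ^ 2) = 2 * Real.sqrt (A ^ 2 + B ^ 2 / 4) := by
  have h : 4 * A ^ 2 + B ^ 2 = 2 ^ 2 * (A ^ 2 + B ^ 2 / 4) := by ring
  rw [h, Real.sqrt_mul (by norm_num), Real.sqrt_sq (by norm_num)]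

/-- The exact midpoint inequality for arrays supported on / off a parent-closed set. -/
theorem array_ineq (m : PotentialModel) (D : Set (List ℕ)) (hD : ∀ a v, a :: v ∈ D → v ∈ D)
    (a b : List ℕ →₀ ℝ) (ha : ∀ s, s ∉ D → a s = 0) (hb : ∀ s ∈ D, b s = 0) :
    2 * Real.sqrt (‖vec m a‖ ^ 2 + ‖vec m b‖ ^ 2 / 4) ≤
      ‖vec m a + vec m b‖ + ‖vec m a - vec m b‖ := by
  set A := ‖vec m a‖ with hA
  set B := ‖vec m b‖ with hB
  have hA0 : 0 ≤ A := norm_nonneg _
  have hB0 : 0 ≤ B := norm_nonneg _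
  rw [← sqrt_four_eq]
  set R := Real.sqrt (4 * A ^ 2 + B ^ 2) with hR
  have hR0 : 0 ≤ R := Real.sqrt_nonneg _
  have hR2 : R ^ 2 = 4 * A ^ 2 + B ^ 2 := Real.sq_sqrt (by positivity)
  rcases hR0.eq_or_lt with hRz | hRpos
  · rw [← hRz]
    positivity
  -- the optimal coefficients
  set α := 2 * A / R with hα
  set β := B / R with hβ
  have hα0 : 0 ≤ α := by positivity
  have hβ0 : 0 ≤ β := by positivity
  have hab : α ^ 2 + β ^ 2 ≤ 1 := by
    have : α ^ 2 + β ^ 2 = (4 * A ^ 2 + B ^ 2) / R ^ 2 := by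
      rw [hα, hβ]; field_simp; ring
    rw [this, hR2, div_self (by rw [← hR2]; positivity)]
  have hα1 : α ≤ 1 := by nlinarith
  have hβ1 : β ≤ 1 := by nlinarith
  have hval : 2 * α * A + β * B = R := by
    rw [hα, hβ]
    field_simp
    nlinarith [hR2]
  refine le_of_forall_pos_le_add (fun ε hε => ?_)
  obtain ⟨f, hf, hfa⟩ := exists_test_gt m a (show 0 < ε / 3 by positivity)
  obtain ⟨g, hg, hgb⟩ := exists_test_gt m b (show 0 < ε / 3 by positivity)
  obtain ⟨hp, hm, hpT, hmT, hon, hoff⟩ := exists_combination m D hD f g hf hg α β hα0 hβ0 hab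
  -- pairings
  have e1 : pair hp a = α * pair f a := by
    unfold pair Finsupp.sum
    rw [Finset.mul_sum]
    refine Finset.sum_congr rfl (fun s hs => ?_)
    have hsD : s ∈ D := by
      by_contra hcon
      exact (Finsupp.mem_support_iff.1 hs) (ha s hcon)
    show a s * hp s = α * (a s * f s)
    rw [(hon s hsD).1]; ring
  have e2 : pair hm a = α * pair f a := by
    unfold pair Finsupp.sum
    rw [Finset.mul_sum]
    refine Finset.sum_congr rfl (fun s hs => ?_)
    have hsD : s ∈ D := by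
      by_contra hcon
      exact (Finsupp.mem_support_iff.1 hs) (ha s hcon)
    show a s * hm s = α * (a s * f s)
    rw [(hon s hsD).2]; ring
  have e3 : pair hp b - pair hm b = β * pair g b := by
    unfold pair Finsupp.sum
    rw [Finset.mul_sum, ← Finset.sum_sub_distrib]
    refine Finset.sum_congr rfl (fun s hs => ?_)
    have hsD : s ∉ D := fun hcon => (Finsupp.mem_support_iff.1 hs) (hb s hcon)
    have := hoff s hsD
    show b s * hp s - b s * hm s = β * (b s * g s)
    calc b s * hp s - b s * hm s = b s * (hp s - hm s) := by ring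
      _ = β * (b s * g s) := by rw [this]; ring
  -- lower bounds for the two norms
  have n1 : pair hp a + pair hp b ≤ ‖vec m a + vec m b‖ := by
    obtain ⟨T, hT⟩ : ∃ T : PotentialTest m, T.1 = hp := ⟨⟨hp, hpT⟩, rfl⟩
    have := abs_apply_le_norm m (vec m a + vec m b) T
    rw [apply_add, vec_apply, vec_apply, hT] at this
    exact (le_abs_self _).trans this
  have n2 : pair hm a - pair hm b ≤ ‖vec m a - vec m b‖ := by
    obtain ⟨T, hT⟩ : ∃ T : PotentialTest m, T.1 = hm := ⟨⟨hm, hmT⟩, rfl⟩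
    have := abs_apply_le_norm m (vec m a - vec m b) T
    rw [apply_sub, vec_apply, vec_apply, hT] at this
    exact (le_abs_self _).trans this
  have h3 : 2 * α * pair f a + β * pair g b ≤ ‖vec m a + vec m b‖ + ‖vec m a - vec m b‖ := by
    have : 2 * α * pair f a + β * pair g b =
        (pair hp a + pair hp b) + (pair hm a - pair hm b) := by
      rw [e1, e2, ← e3]; ring
    rw [this]
    exact add_le_add n1 n2
  have h4 : R - ε ≤ 2 * α * pair f a + β * pair g b := by
    have t1 : α * (A - ε / 3) ≤ α * pair f a := mul_le_mul_of_nonneg_left hfa.le hα0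
    have t2 : β * (B - ε / 3) ≤ β * pair g b := mul_le_mul_of_nonneg_left hgb.le hβ0
    have t3 : α * (ε / 3) ≤ ε / 3 := by nlinarith
    have t4 : β * (ε / 3) ≤ ε / 3 := by nlinarith
    nlinarith
  linarith

/-- Perturbation of `√(X² + Y²/4)`. -/
theorem sqrt_pert (X Y A B : ℝ) :
    Real.sqrt (X ^ 2 + Y ^ 2 / 4) ≤ Real.sqrt (A ^ 2 + B ^ 2 / 4) + |X - A| + |Y - B| / 2 := by
  set r := Real.sqrt (A ^ 2 + B ^ 2 / 4) with hr
  have hr0 : 0 ≤ r := Real.sqrt_nonneg _
  have hr2 : r ^ 2 = A ^ 2 + B ^ 2 / 4 := Real.sq_sqrt (by positivity)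
  have hp : 0 ≤ |X - A| := abs_nonneg _
  have hq : 0 ≤ |Y - B| / 2 := by positivity
  rw [Real.sqrt_le_left (by positivity)]
  have hu : |A| ≤ r := Real.abs_le_sqrt (by nlinarith [sq_nonneg B])
  have hw : |B| / 2 ≤ r := by
    have : |B / 2| ≤ r := Real.abs_le_sqrt (by nlinarith [sq_nonneg A])
    rwa [abs_div, abs_of_pos (by norm_num : (0 : ℝ) < 2)] at this
  have hX : X ^ 2 ≤ (|A| + |X - A|) ^ 2 := by
    have : |X| ≤ |A| + |X - A| := by
      have := abs_add_le A (X - A)
      rwa [add_sub_cancel] at this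
    calc X ^ 2 = |X| ^ 2 := (sq_abs X).symm
      _ ≤ (|A| + |X - A|) ^ 2 := by
        apply pow_le_pow_left₀ (abs_nonneg _) this
  have hY : Y ^ 2 / 4 ≤ (|B| / 2 + |Y - B| / 2) ^ 2 := by
    have : |Y| ≤ |B| + |Y - B| := by
      have := abs_add_le B (Y - B)
      rwa [add_sub_cancel] at this
    have h2 : Y ^ 2 ≤ (|B| + |Y - B|) ^ 2 := by
      calc Y ^ 2 = |Y| ^ 2 := (sq_abs Y).symm
        _ ≤ (|B| + |Y - B|) ^ 2 := by
          apply pow_le_pow_left₀ (abs_nonneg _) this
    nlinarith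
  have hA2 : |A| ^ 2 = A ^ 2 := sq_abs A
  have hB2 : |B| ^ 2 = B ^ 2 := sq_abs B
  nlinarith [mul_nonneg hp hq, mul_nonneg (sub_nonneg.2 hu) hp, mul_nonneg (sub_nonneg.2 hw) hq,
    abs_nonneg A, abs_nonneg B]

/-- The parent closure of the support of an array, together with the root. -/
noncomputable def pclosure (a : List ℕ →₀ ℝ) : Finset (List ℕ) :=
  insert [] (a.support.biUnion (fun s => s.tails.toFinset))

theorem pclosure_closed (a : List ℕ →₀ ℝ) (c : ℕ) (v : List ℕ) (h : c :: v ∈ pclosure a) :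
    v ∈ pclosure a := by
  unfold pclosure at h ⊢
  rw [Finset.mem_insert] at h ⊢
  rcases h with h | h
  · exact absurd h (by simp)
  · right
    rw [Finset.mem_biUnion] at h ⊢
    obtain ⟨s, hs, hcv⟩ := h
    refine ⟨s, hs, ?_⟩
    rw [List.mem_toFinset, List.mem_tails] at hcv ⊢
    exact (List.suffix_cons c v).trans hcv

theorem support_subset_pclosure (a : List ℕ →₀ ℝ) : a.support ⊆ pclosure a := by
  intro s hs
  unfold pclosure
  rw [Finset.mem_insert]
  right
  rw [Finset.mem_biUnion]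
  exact ⟨s, hs, by rw [List.mem_toFinset, List.mem_tails]⟩

/-- The coordinate functional of a vertex of `D` (zero when the single-vertex family is not a test). -/
noncomputable def coordFun (m : PotentialModel) (s : List ℕ) : ↥(modelSpace m) →L[ℝ] ℝ :=
  open Classical in
  if h : IsTest m (delta s) then evT m (mkTest m (delta s) h) else 0

/-- Small coordinates on `D` can be removed at small cost. -/
theorem norm_vec_filter_le (m : PotentialModel) (D : Finset (List ℕ)) (b₀ : List ℕ →₀ ℝ) {δ : ℝ}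
    (hδ : 0 ≤ δ) (hsmall : ∀ s ∈ D, IsTest m (delta s) → |b₀ s| ≤ δ) :
    ‖vec m (b₀.filter (· ∈ D))‖ ≤ 2 * (D.card : ℝ) * δ := by
  classical
  refine norm_le_of_forall_abs_le m _ (by positivity) (fun f => ?_)
  rw [vec_apply]
  unfold pair Finsupp.sum
  have hsupp : (b₀.filter (· ∈ D)).support ⊆ D := by
    intro s hs
    rw [Finsupp.support_filter, Finset.mem_filter] at hs
    exact hs.2
  calc |∑ s ∈ (b₀.filter (· ∈ D)).support, (b₀.filter (· ∈ D)) s * f.1 s|
      ≤ ∑ s ∈ (b₀.filter (· ∈ D)).support, |(b₀.filter (· ∈ D)) s * f.1 s| :=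
        Finset.abs_sum_le_sum_abs _ _
    _ ≤ ∑ s ∈ (b₀.filter (· ∈ D)).support, 2 * δ := by
        refine Finset.sum_le_sum (fun s hs => ?_)
        have hsD : s ∈ D := hsupp hs
        rw [Finsupp.filter_apply_pos _ _ hsD, abs_mul]
        rcases delta_test_or_zero m s with ht | hz
        · have h1 := hsmall s hsD ht
          have h2 := abs_test_le_two m f s
          calc |b₀ s| * |f.1 s| ≤ δ * 2 := mul_le_mul h1 h2 (abs_nonneg _) hδ
            _ = 2 * δ := by ring
        · rw [hz f, abs_zero, mul_zero]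
          positivity
    _ = ((b₀.filter (· ∈ D)).support.card : ℝ) * (2 * δ) := by
        rw [Finset.sum_const, nsmul_eq_mul]
    _ ≤ (D.card : ℝ) * (2 * δ) := by
        apply mul_le_mul_of_nonneg_right _ (by positivity)
        exact_mod_cast Finset.card_le_card hsupp
    _ = 2 * (D.card : ℝ) * δ := by ring

theorem MP_model (m : PotentialModel) : MP ↥(modelSpace m) := by
  classical
  intro x η hη
  obtain ⟨a, ha⟩ := exists_vec_near m x (show 0 < η / 8 by positivity)
  set D : Finset (List ℕ) := pclosure a with hDdef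
  have hDc : ∀ c v, c :: v ∈ (D : Set (List ℕ)) → v ∈ (D : Set (List ℕ)) :=
    fun c v h => pclosure_closed a c v h
  refine ⟨{y | ∀ i : ↥D, coordFun m i.1 y = 0}, isCofT_ker_pi (fun i : ↥D => coordFun m i.1), ?_⟩
  intro y hy
  set N : ℝ := (D.card : ℝ) with hN
  have hN0 : 0 ≤ N := Nat.cast_nonneg _
  set δ : ℝ := η / (8 * (1 + 2 * N)) with hδdef
  have hδ : 0 < δ := by positivity
  obtain ⟨b₀, hb₀⟩ := exists_vec_near m y hδ
  -- coordinates of b₀ on D are small
  have hsmall : ∀ s ∈ D, IsTest m (delta s) → |b₀ s| ≤ δ := by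
    intro s hs ht
    have h0 : coordFun m s y = 0 := hy ⟨s, hs⟩
    unfold coordFun at h0
    rw [dif_pos ht, evT_apply] at h0
    have h1 := abs_apply_le_norm m (y - vec m b₀) (mkTest m (delta s) ht)
    rw [apply_sub, vec_apply, mkTest_val, pair_delta, h0, zero_sub, abs_neg] at h1
    exact h1.trans hb₀.le
  set b₁ := b₀.filter (· ∈ D) with hb₁
  set b := b₀.filter (fun s => ¬ (s ∈ D)) with hb
  have hsplit : b₀ = b₁ + b := (Finsupp.filter_add_filter_not b₀ (· ∈ D)).symm
  have hb₁n : ‖vec m b₁‖ ≤ 2 * N * δ := norm_vec_filter_le m D b₀ hδ.le hsmall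
  have hyb : ‖y - vec m b‖ ≤ η / 8 := by
    have e : y - vec m b = (y - vec m b₀) + vec m b₁ := by
      rw [hsplit, vec_add]; abel
    rw [e]
    calc ‖(y - vec m b₀) + vec m b₁‖ ≤ ‖y - vec m b₀‖ + ‖vec m b₁‖ := norm_add_le _ _
      _ ≤ δ + 2 * N * δ := add_le_add hb₀.le hb₁n
      _ = η / 8 := by
        rw [hδdef]; field_simp
  -- the exact inequality for the arrays
  have hmain := array_ineq m (D : Set (List ℕ)) hDc a b
    (fun s hs => by
      by_contra hcon
      exact hs (support_subset_pclosure a (Finsupp.mem_support_iff.2 hcon)))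
    (fun s hs => Finsupp.filter_apply_neg _ _ (by simpa using hs))
  -- transfer to x, y
  have hX : |‖x‖ - ‖vec m a‖| ≤ η / 8 := (abs_norm_sub_norm_le _ _).trans ha.le
  have hY : |‖y‖ - ‖vec m b‖| ≤ η / 8 := (abs_norm_sub_norm_le _ _).trans hyb
  have h1 : ‖vec m a + vec m b‖ ≤ ‖x + y‖ + η / 4 := by
    have e : vec m a + vec m b = (x + y) - ((x - vec m a) + (y - vec m b)) := by abel
    rw [e]
    calc ‖(x + y) - ((x - vec m a) + (y - vec m b))‖
        ≤ ‖x + y‖ + ‖(x - vec m a) + (y - vec m b)‖ := norm_sub_le _ _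
      _ ≤ ‖x + y‖ + (‖x - vec m a‖ + ‖y - vec m b‖) := by
        gcongr; exact norm_add_le _ _
      _ ≤ ‖x + y‖ + η / 4 := by linarith
  have h2 : ‖vec m a - vec m b‖ ≤ ‖x - y‖ + η / 4 := by
    have e : vec m a - vec m b = (x - y) - ((x - vec m a) - (y - vec m b)) := by abel
    rw [e]
    calc ‖(x - y) - ((x - vec m a) - (y - vec m b))‖
        ≤ ‖x - y‖ + ‖(x - vec m a) - (y - vec m b)‖ := norm_sub_le _ _
      _ ≤ ‖x - y‖ + (‖x - vec m a‖ + ‖y - vec m b‖) := by
        gcongr; exact norm_sub_le _ _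
      _ ≤ ‖x - y‖ + η / 4 := by linarith
  have h3 := sqrt_pert ‖x‖ ‖y‖ ‖vec m a‖ ‖vec m b‖
  linarith

end Crest.Agent.PotLib
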